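import Crest.Agent.R264.Defs

/-! Row 264, Model 4: the linear algebra at one point of the base. -/

set_option autoImplicit false
set_option linter.unusedSectionVars false
open Set Filter Topology Metric Complex

namespace Crest.Agent.R264.Dx

variable {V : Type} [NormedAddCommGroup V] [NormedSpace ℂ V] [NormedSpace ℝ V] [IsScalarTower ℝ ℂ V]
  [FiniteDimensional ℂ V]

theorem rs {F : Type} [NormedAddCommGroup F] [NormedSpace ℂ F] [NormedSpace ℝ F] [IsScalarTower ℝ ℂ F] (x : ℝ)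
    (v : F) : (x : ℂ) • v = x • v := IsScalarTower.algebraMap_smul ℂ x v

theorem smul_split (c : ℂ) (v : V) : c • v = c.re • v + c.im • (I • v) := by
  conv_lhs => rw [← re_add_im c]
  rw [add_smul, mul_smul, rs, rs]

theorem I_I (v : V) : I • I • v = -v := by rw [smul_smul, I_mul_I, neg_one_smul]

/-- the complex linear part (times two) of a real linear map -/
theorem exists_clin {F : Type} [NormedAddCommGroup F] [NormedSpace ℂ F] [NormedSpace ℝ F] [IsScalarTower ℝ ℂ F]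
    (T : V →ₗ[ℝ] F) : ∃ M : V →L[ℂ] F, ∀ v, M v = T v - I • T (I • v) := by
  refine ⟨LinearMap.toContinuousLinearMap
    { toFun := fun v => T v - I • T (I • v), map_add' := ?_, map_smul' := ?_ }, fun v => rfl⟩
  · intro x y
    simp only [smul_add, map_add]; abel
  · intro c v
    have h1 : T (c • v) = c.re • T v + c.im • T (I • v) := by
      rw [smul_split c v, map_add, T.map_smul, T.map_smul]
    have h2 : T (I • c • v) = c.re • T (I • v) - c.im • T v := by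
      rw [smul_comm I c v, smul_split c (I • v), map_add, T.map_smul, T.map_smul, I_I, map_neg, smul_neg,
        sub_eq_add_neg]
    rw [h1, h2, RingHom.id_apply, ← rs, ← rs, ← rs, ← rs]
    conv_rhs => rw [← re_add_im c]
    match_scalars
    · ring
    · linear_combination (c.im : ℂ) * I_mul_I

/-- complex bilinear part -/
theorem exists_cbil (η : V →L[ℝ] V →L[ℝ] ℂ) : ∃ S : V →L[ℂ] V →L[ℂ] ℂ, ∀ v v',
    S v v' = η v v' - η (I • v) (I • v') - I * (η v (I • v') + η (I • v) v') := by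
  have h := fun v => exists_clin (η v : V →ₗ[ℝ] ℂ)
  choose T hT using h
  let T' : V →ₗ[ℝ] (V →L[ℂ] ℂ) :=
    { toFun := T
      map_add' := fun x y => by
        ext v; simp only [hT, map_add, add_apply, ContinuousLinearMap.coe_coe, smul_eq_mul]; ring
      map_smul' := fun c x => by
        ext v
        simp only [hT, map_smul, smul_apply, ContinuousLinearMap.coe_coe, smul_eq_mul,
          RingHom.id_apply, real_smul]
        ring }
  obtain ⟨S, hS⟩ := exists_clin T'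
  refine ⟨S, fun v v' => ?_⟩
  rw [hS]
  simp only [T', LinearMap.coe_mk, AddHom.coe_mk, sub_apply, smul_apply, hT,
    ContinuousLinearMap.coe_coe, smul_eq_mul]
  linear_combination (η (I • v) (I • v')) * I_mul_I

/-- consequences of `Geo.OK.rel`, `Geo.OK.symm` at one point -/
structure Pt (κ : V →L[ℝ] V →L[ℝ] ℝ) (ξ : V →L[ℝ] V) (η : V →L[ℝ] V →L[ℝ] ℂ) : Prop where
  lag : ∀ l l', ξ l + I • ξ l' = 0 → ∀ a, 2 * η a l + (κ a l : ℂ) + I * (2 * η a l' + (κ a l' : ℂ)) = 0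
  symm : ∀ a a', η a a' = η a' a

/-- semipositivity -/
def SP (κ : V →L[ℝ] V →L[ℝ] ℝ) (ξ : V →L[ℝ] V) : Prop := ∀ l l', ξ l + I • ξ l' = 0 → κ l l' ≤ 0

/-- the reference Lagrangian -/
structure Ref (κ : V →L[ℝ] V →L[ℝ] ℝ) (α : V →L[ℝ] V) (c : ℝ) : Prop where
  skew : ∀ a a', κ a a' = -κ a' a
  ndeg : ∀ a, (∀ a', κ a a' = 0) → a = 0
  surj : Function.Surjective α
  lag : ∀ v v', κ (α v) (α (I • v')) + κ (α (I • v)) (α v') = 0
  pos : 0 < c
  le : ∀ v, c * ‖v‖ ^ 2 ≤ -κ (α v) (α (I • v))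

variable {κ : V →L[ℝ] V →L[ℝ] ℝ} {ξ α : V →L[ℝ] V} {η : V →L[ℝ] V →L[ℝ] ℂ} {c : ℝ}

theorem skew_of (h : ∀ a, κ a a = 0) (a a' : V) : κ a a' = -κ a' a := by
  have := h (a + a')
  simp only [map_add, add_apply, h] at this
  linarith

theorem Pt.lag2 (h : Pt κ ξ η) (hs : ∀ a a', κ a a' = -κ a' a) {l l' k k' : V} (hl : ξ l + I • ξ l' = 0)
    (hk : ξ k + I • ξ k' = 0) : κ l k' + κ l' k = 0 := by
  have e1 := h.lag l l' hl k
  have e2 := h.lag l l' hl k'
  have e3 := h.lag k k' hk l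
  have e4 := h.lag k k' hk l'
  rw [h.symm k l, h.symm k l', hs k l, hs k l'] at e1
  rw [h.symm k' l, h.symm k' l', hs k' l, hs k' l'] at e2
  have e : ((κ l k : ℂ) - κ l' k') + I * ((κ l k' : ℂ) + κ l' k) = 0 := by
    push_cast at e1 e2
    linear_combination (-1 / 2 : ℂ) * e1 - I / 2 * e2 + e3 / 2 + I / 2 * e4 +
      (η l' k' - η l' k' - (κ l' k' : ℂ)) * I_mul_I
  simpa using congrArg Complex.im e

theorem exists_ref (h : Pt κ ξ η) (hs : ∀ a, κ a a = 0) (hn : ∀ a, (∀ a', κ a a' = 0) → a = 0)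
    (hi : ξ.IsInvertible) (hp : ∀ a a', ξ a' = I • ξ a → a ≠ 0 → κ a a' < 0) : ∃ α c, Ref κ α c := by
  have hz : ∀ v, ξ (ξ.inverse v) + I • ξ (ξ.inverse (I • v)) = 0 := fun v => by
    rw [hi.self_apply_inverse, hi.self_apply_inverse, I_I, add_neg_cancel]
  have hpos : ∀ v, v ≠ 0 → 0 < -κ (ξ.inverse v) (ξ.inverse (I • v)) := fun v hv => by
    refine neg_pos.2 (hp _ _ (by rw [hi.self_apply_inverse, hi.self_apply_inverse]) fun h0 => hv ?_)
    rw [← hi.self_apply_inverse v, h0, map_zero]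
  have hc : Continuous fun v : V => -κ (ξ.inverse v) (ξ.inverse (I • v)) := by fun_prop
  have : ∃ c > 0, ∀ v ∈ sphere (0 : V) 1, c ≤ -κ (ξ.inverse v) (ξ.inverse (I • v)) := by
    rcases (sphere (0 : V) 1).eq_empty_or_nonempty with he | hne
    · exact ⟨1, one_pos, by simp [he]⟩
    · obtain ⟨v₀, hv₀, hm⟩ := (isCompact_sphere (0 : V) 1).exists_isMinOn hne hc.continuousOn
      refine ⟨_, hpos v₀ ?_, fun v hv => hm hv⟩
      rintro rfl
      simp at hv₀
  obtain ⟨c, hc0, hc⟩ := this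
  refine ⟨ξ.inverse, c, skew_of hs, hn, hi.inverse.surjective, fun v v' => h.lag2 (skew_of hs) (hz v) (hz v'), hc0,
    fun v => ?_⟩
  rcases eq_or_ne v 0 with rfl | hv
  · simp
  · have hn : 0 < ‖v‖ := norm_pos_iff.2 hv
    have := hc (‖v‖⁻¹ • v) (by simp [norm_smul, hn.ne'])
    rw [smul_comm I, map_smul, map_smul, map_smul, map_smul] at this
    simp only [smul_apply, smul_eq_mul] at this
    have h2 := mul_le_mul_of_nonneg_right this (sq_nonneg ‖v‖)
    refine h2.trans (le_of_eq ?_)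
    field_simp

theorem lam_mem {ℓ b : V} (e : ξ (α ℓ) - I • ξ (α (I • ℓ)) = ξ b) :
    ξ (b - α ℓ) + I • ξ (α (I • ℓ)) = 0 := by
  rw [map_sub, ← e]; abel

/-- `Q u - Im η^ℂ(ℓ,ℓ) = q(b)` -/
theorem Pt.q_eq (h : Pt κ ξ η) (hs : ∀ a a', κ a a' = -κ a' a) {ℓ b : V}
    (e : ξ (α ℓ) - I • ξ (α (I • ℓ)) = ξ b) :
    (η b b).im - (η (α ℓ) (α ℓ) - η (α (I • ℓ)) (α (I • ℓ)) -
      I * (η (α ℓ) (α (I • ℓ)) + η (α (I • ℓ)) (α ℓ))).im = κ (α (I • ℓ)) b := by
  set p := α ℓ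
  set p' := α (I • ℓ)
  have hl := lam_mem e
  have e1 := h.lag _ _ hl b
  have e2 := h.lag _ _ hl p
  have e3 := h.lag _ _ hl p'
  have k1 : κ b b = 0 := by have := hs b b; linarith
  have k2 : κ p p = 0 := by have := hs p p; linarith
  have k3 : κ p' p' = 0 := by have := hs p' p'; linarith
  simp only [map_sub] at e1 e2 e3
  rw [h.symm p b, hs p b, k2] at e2
  rw [h.symm p' b, h.symm p' p, k3, hs p' p] at e3
  rw [k1, hs b p'] at e1
  rw [h.symm p' p]
  have e : η b b - (η p p - η p' p' - I * (η p p' + η p p')) = (κ b p : ℂ) + I * (κ p' b : ℂ) := by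
    push_cast at e1 e2 e3
    linear_combination e1 / 2 + e2 / 2 - I / 2 * e3 + (η p' p') * I_mul_I
  have := congrArg Complex.im e
  simpa using this

theorem Ref.q_ge (hr : Ref κ α c) (hp : SP κ ξ) {ℓ b : V} (e : ξ (α ℓ) - I • ξ (α (I • ℓ)) = ξ b) :
    c * ‖ℓ‖ ^ 2 ≤ κ (α (I • ℓ)) b := by
  have h1 := hp _ _ (lam_mem e)
  have h2 := hr.le ℓ
  rw [map_sub, sub_apply, hr.skew b] at h1
  linarith

theorem Ref.q_symm (hr : Ref κ α c) (h : Pt κ ξ η) {ℓ b ℓ' b' : V} (e : ξ (α ℓ) - I • ξ (α (I • ℓ)) = ξ b)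
    (e' : ξ (α ℓ') - I • ξ (α (I • ℓ')) = ξ b') : κ (α (I • ℓ)) b' = κ (α (I • ℓ')) b := by
  have h1 := h.lag2 hr.skew (lam_mem e) (lam_mem e')
  have h2 := hr.lag ℓ ℓ'
  rw [map_sub, map_sub, sub_apply, hr.skew b] at h1
  linarith

theorem Ref.cs (hr : Ref κ α c) (h : Pt κ ξ η) (hp : SP κ ξ) {ℓ b ℓ' b' : V}
    (e : ξ (α ℓ) - I • ξ (α (I • ℓ)) = ξ b) (e' : ξ (α ℓ') - I • ξ (α (I • ℓ')) = ξ b') :
    κ (α (I • ℓ)) b' ^ 2 ≤ κ (α (I • ℓ')) b' * κ (α (I • ℓ)) b := by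
  have hs := hr.q_symm h e e'
  have key : ∀ s : ℝ, 0 ≤ κ (α (I • ℓ')) b' * (s * s) + 2 * κ (α (I • ℓ)) b' * s + κ (α (I • ℓ)) b := fun s => by
    have e2 : ξ (α (ℓ + s • ℓ')) - I • ξ (α (I • (ℓ + s • ℓ'))) = ξ (b + s • b') := by
      rw [smul_add, smul_comm I s]
      simp only [map_add, map_smul, smul_add]
      rw [← e, ← e', smul_comm I s, smul_sub]; abel
    have h1 := (mul_nonneg hr.pos.le (sq_nonneg _)).trans (hr.q_ge hp e2)
    rw [smul_add, smul_comm I s] at h1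
    simp only [map_add, map_smul, add_apply, smul_apply, smul_eq_mul] at h1
    rw [← hs] at h1
    linarith
  have := discrim_le_zero key
  unfold discrim at this
  nlinarith

theorem Ref.inj (hr : Ref κ α c) (hp : SP κ ξ) {ℓ : V} (e : ξ (α ℓ) - I • ξ (α (I • ℓ)) = 0) : ℓ = 0 := by
  have h1 := hr.q_ge hp (b := 0) (by rw [e, map_zero])
  rw [map_zero] at h1
  have : ‖ℓ‖ ^ 2 ≤ 0 := by
    by_contra hh
    have := mul_pos hr.pos (not_le.1 hh)
    linarith
  exact norm_eq_zero.1 (pow_eq_zero_iff two_ne_zero |>.1 (le_antisymm this (sq_nonneg _)))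

/-- the functional `κ^ℂ(·, b₀)` -/
theorem Ref.exists_fun (hr : Ref κ α c) {b : V} (hb : b ≠ 0) :
    ∃ φ : V →L[ℂ] ℂ, φ ≠ 0 ∧ ∀ v, (φ v).im = -κ (α (I • v)) b := by
  obtain ⟨φ, hφ⟩ := exists_clin (ofRealCLM.comp ((κ.flip b).comp α) : V →ₗ[ℝ] ℂ)
  refine ⟨φ, fun h0 => hb (hr.ndeg b fun a => ?_), fun v => by simp [hφ]⟩
  obtain ⟨v, rfl⟩ := hr.surj a
  have := congrArg Complex.re (hφ v)
  simp [h0] at this
  rw [hr.skew, ← this, neg_zero]

theorem sp_of_pos (hp : ∀ a a', ξ a' = I • ξ a → a ≠ 0 → κ a a' < 0) : SP κ ξ := fun l l' e => by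
  rcases eq_or_ne l 0 with rfl | hl
  · simp
  · refine (hp l l' ?_ hl).le
    have := congrArg (I • ·) e
    simp only [smul_add, I_I, smul_zero] at this
    exact (add_neg_eq_zero.1 this).symm

theorem exists_ker (hi : ¬ ξ.IsInvertible) : ∃ b, b ≠ 0 ∧ ξ b = 0 := by
  by_contra hh
  push Not at hh
  have hinj : Function.Injective ξ := (injective_iff_map_eq_zero ξ).2 fun a ha => by
    by_contra h0; exact hh a h0 ha
  exact hi ⟨(LinearEquiv.ofInjectiveEndo (ξ : V →ₗ[ℝ] V) hinj).toContinuousLinearEquiv, by ext; simp⟩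

theorem inv_of_inj {M : V →L[ℂ] V} (h : ∀ v, M v = 0 → v = 0) : M.IsInvertible :=
  ⟨(LinearEquiv.ofInjectiveEndo (M : V →ₗ[ℂ] V) ((injective_iff_map_eq_zero M).2 h)).toContinuousLinearEquiv,
    by ext; simp⟩

end Crest.Agent.R264.Dx
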