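import Crest.Agent.R264.Base.One
import Crest.Agent.R264.Dx.Alg

/-! Row 264, Model 4: the analytic core (bounds for the fibre Jacobian, boundary uniqueness). -/

set_option autoImplicit false
set_option linter.unusedSectionVars false
open Set Filter Topology Metric Complex

namespace Crest.Agent.R264.Dx

theorem det_bound {ι : Type} [Fintype ι] [DecidableEq ι] (M : Matrix ι ι ℂ) (ρ : ι → ℝ)
    (h : ∀ i j, ‖M i j‖ ≤ ρ i) : ‖M.det‖ ≤ (Fintype.card ι).factorial * ∏ i, ρ i := by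
  rw [Matrix.det_apply']
  refine (norm_sum_le _ _).trans ?_
  have : ∀ σ : Equiv.Perm ι, ‖((Equiv.Perm.sign σ : ℤ) : ℂ) * ∏ i, M (σ i) i‖ ≤ ∏ i, ρ i := fun σ => by
    rw [norm_mul, norm_prod, ← Equiv.prod_comp σ ρ]
    have h1 : ‖((Equiv.Perm.sign σ : ℤ) : ℂ)‖ = 1 := by
      rcases Int.units_eq_one_or (Equiv.Perm.sign σ) with h | h <;> simp [h]
    rw [h1, one_mul]
    exact Finset.prod_le_prod (fun _ _ => norm_nonneg _) fun i _ => h _ _
  refine (Finset.sum_le_sum fun σ _ => this σ).trans (le_of_eq ?_)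
  simp [Fintype.card_perm]

theorem det_bound2 {A : Type} [Fintype A] [DecidableEq A] (M : Matrix (Option A) (Option A) ℂ) (φ : A → ℂ) (a₀ : A)
    {p s θ : ℝ} (h0 : ∀ j, ‖M none j‖ ≤ p) (h1 : ∀ a j, ‖M (some a) j‖ ≤ s)
    (h2 : ∀ j, ‖∑ a, φ a * M (some a) j‖ ≤ θ * s) :
    ‖φ a₀‖ * ‖M.det‖ ≤ θ * ((Fintype.card (Option A)).factorial * (p * s ^ Fintype.card A)) := by
  have e := Matrix.det_updateRow_sum M (some a₀) (fun i => Option.elim i 0 φ)
  have hb := det_bound (M.updateRow (some a₀) (∑ k, (fun i => Option.elim i 0 φ) k • M k))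
    (fun i => (if i = some a₀ then θ else 1) * Option.elim i p fun _ => s) fun i j => by
      by_cases hi : i = some a₀
      · subst hi
        simpa [Matrix.updateRow_self, Fintype.sum_option, Finset.sum_apply] using h2 j
      · rw [Matrix.updateRow_ne hi, if_neg hi, one_mul]
        cases i with
        | none => exact h0 j
        | some a => exact h1 a j
  rw [e, Finset.prod_mul_distrib, Finset.prod_ite_eq', Fintype.prod_option] at hb
  simp only [Option.elim_some, smul_eq_mul, norm_mul, Finset.mem_univ, if_true, Option.elim_none,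
    Finset.prod_const, Finset.card_univ] at hb
  linarith

theorem an_det {D : Type} [NormedAddCommGroup D] [NormedSpace ℂ D] {ι : Type} [Fintype ι] [DecidableEq ι]
    {M : D → Matrix ι ι ℂ} {t : D} (h : ∀ i j, AnalyticAt ℂ (fun τ => M τ i j) t) :
    AnalyticAt ℂ (fun τ => (M τ).det) t := by
  simp only [Matrix.det_apply']
  exact Finset.analyticAt_fun_sum _ fun σ _ => analyticAt_const.mul (Finset.analyticAt_fun_prod _ fun i _ => h _ _)

theorem plus_side {H : Type} [NormedAddCommGroup H] [NormedSpace ℝ H] {r : H → ℝ} {q : H} (h0 : r q = 0)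
    (hd : fderiv ℝ r q ≠ 0) : ∃ᶠ x in 𝓝 q, 0 < r x := fun h =>
  hd (IsLocalMax.fderiv_eq_zero (h.mono fun x hx => by rw [h0]; exact not_lt.1 hx))

section Fibre
variable {F V : Type} [NormedAddCommGroup F] [NormedSpace ℂ F] [NormedSpace ℝ F] [IsScalarTower ℝ ℂ F]
  [FiniteDimensional ℂ F] [NormedAddCommGroup V] [NormedSpace ℂ V]

theorem fib_est {w : F → ℂ} {ℓ : F → V} {δ K : ℝ} (hδ : 0 < δ) (hK : 0 ≤ K) (hw : DifferentiableOn ℂ w (ball 0 δ))
    (hℓ : DifferentiableOn ℂ ℓ (ball 0 δ)) (hp : ∀ x ∈ ball (0 : F) δ, 0 < (w x).im) (ψ : V →L[ℂ] ℂ)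
    (hψ : ∀ x ∈ ball (0 : F) δ, (ψ (ℓ x)).im ^ 2 ≤ K * (w x).im) (e : F) :
    ‖ψ (fderiv ℂ ℓ 0 e)‖ ≤ 48 / δ * √K * √‖w 0 + I‖ * ‖e‖ := by
  have h1 := (im_pos_est hδ hw hp).1
  have hs : ball (0 : F) (δ / 2) ⊆ ball 0 δ := ball_subset_ball (by linarith)
  have h2 := fderiv_le_of_im (f := fun x => ψ (ℓ x)) (c := 0) (δ := δ / 2) (M := 3 * √K * √‖w 0 + I‖) (by linarith)
    (ψ.differentiable.comp_differentiableOn (hℓ.mono hs)) fun x hx => by
      refine abs_le_of_sq_le_sq' ?_ (by positivity) |> abs_le.2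
      rw [mul_pow, mul_pow, Real.sq_sqrt hK, Real.sq_sqrt (norm_nonneg _)]
      have := mul_le_mul_of_nonneg_left (h1 x hx).2 hK
      linarith [hψ x (hs hx)]
  have hd : HasFDerivAt (fun x => ψ (ℓ x)) (ψ.comp (fderiv ℂ ℓ 0)) 0 :=
    ψ.hasFDerivAt.comp 0 (hℓ.differentiableAt (ball_mem_nhds 0 hδ)).hasFDerivAt
  rw [hd.fderiv] at h2
  refine ((ψ.comp (fderiv ℂ ℓ 0)).le_opNorm e).trans (mul_le_mul_of_nonneg_right (h2.trans (le_of_eq ?_)) (norm_nonneg _))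
  field_simp
  ring

end Fibre

variable {A : Type} [Fintype A] [DecidableEq A] {k : ℕ}

/-- the Jacobian matrix -/
noncomputable def jm (σ : Option A ≃ Fin k) (D₀ : (Fin k → ℂ) → ℂ) (D : (Fin k → ℂ) → (A → ℂ)) :
    Matrix (Option A) (Option A) ℂ :=
  fun i j => Option.elim i (D₀ (Pi.single (σ j) 1)) fun a => D (Pi.single (σ j) 1) a

theorem jm_ne (σ : Option A ≃ Fin k) (D₀ : (Fin k → ℂ) →L[ℂ] ℂ) (D : (Fin k → ℂ) →L[ℂ] (A → ℂ))
    (h : ∀ e, D₀ e = 0 → D e = 0 → e = 0) : (jm σ D₀ D).det ≠ 0 := by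
  intro hd
  obtain ⟨v, hv, hm⟩ := Matrix.exists_mulVec_eq_zero_iff.2 hd
  have he : (fun i => v (σ.symm i)) = ∑ j, v j • (Pi.single (σ j) (1 : ℂ) : Fin k → ℂ) := by
    ext i
    obtain ⟨j, rfl⟩ := σ.surjective i
    simp [Finset.sum_apply, Pi.single_apply]
  have h0 := h (fun i => v (σ.symm i)) (by
    have := congrFun hm none
    rw [he, map_sum]
    simpa [Matrix.mulVec, dotProduct, jm, mul_comm] using this) (by
    ext a
    have := congrFun hm (some a)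
    rw [he, map_sum]
    simpa [Matrix.mulVec, dotProduct, jm, mul_comm, Finset.sum_apply] using this)
  exact hv (funext fun j => by simpa using congrFun h0 (σ j))

/-- the two estimates on one fibre -/
theorem jm_est (σ : Option A ≃ Fin k) {δ c : ℝ} (hδ : 0 < δ) (hc : 0 < c) : ∃ K : ℝ, 0 ≤ K ∧
    ∀ (w : (Fin k → ℂ) → ℂ) (ℓ : (Fin k → ℂ) → (A → ℂ)), DifferentiableOn ℂ w (ball 0 δ) →
      DifferentiableOn ℂ ℓ (ball 0 δ) → (∀ x ∈ ball (0 : Fin k → ℂ) δ, c * ‖ℓ x‖ ^ 2 < (w x).im) →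
      ‖(jm σ (fderiv ℂ w 0) (fderiv ℂ ℓ 0)).det ^ 2 / (w 0 + I) ^ (Fintype.card A + 2)‖ ≤ K ∧
      ∀ (φ : (A → ℂ) →L[ℂ] ℂ) (ε : ℝ) (a₀ : A), 0 ≤ ε → (∀ x ∈ ball (0 : Fin k → ℂ) δ, (φ (ℓ x)).im ^ 2 ≤ ε * (w x).im) →
        ‖φ (Pi.single a₀ 1)‖ ^ 2 *
          ‖(jm σ (fderiv ℂ w 0) (fderiv ℂ ℓ 0)).det ^ 2 / (w 0 + I) ^ (Fintype.card A + 2)‖ ≤ ε * c * K := by
  refine ⟨((Fintype.card (Option A)).factorial * (36 / δ * (48 / δ * √c⁻¹) ^ Fintype.card A)) ^ 2, sq_nonneg _,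
    fun w ℓ hw hℓ hp => ?_⟩
  have hp' : ∀ x ∈ ball (0 : Fin k → ℂ) δ, 0 < (w x).im := fun x hx => lt_of_le_of_lt (by positivity) (hp x hx)
  set N := ‖w 0 + I‖ with hN
  have hN0 : 0 < N := by
    refine norm_pos_iff.2 fun h => ?_
    have := congrArg Complex.im h
    have h2 := hp' 0 (mem_ball_self hδ)
    simp at this
    linarith
  have h0 : ∀ j, ‖jm σ (fderiv ℂ w 0) (fderiv ℂ ℓ 0) none j‖ ≤ 36 / δ * N := fun j => by
    refine ((fderiv ℂ w 0).le_opNorm _).trans ?_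
    rw [Pi.norm_single, norm_one, mul_one]
    exact (im_pos_est hδ hw hp').2
  have h1 : ∀ a j, ‖jm σ (fderiv ℂ w 0) (fderiv ℂ ℓ 0) (some a) j‖ ≤ 48 / δ * √c⁻¹ * √N := fun a j => by
    have := fib_est hδ (inv_nonneg.2 hc.le) hw hℓ hp' (ContinuousLinearMap.proj a) (fun x hx => ?_) (Pi.single (σ j) 1)
    · rwa [Pi.norm_single, norm_one, mul_one] at this
    · have h3 : (ℓ x a).im ^ 2 ≤ ‖ℓ x‖ ^ 2 := by
        rw [← sq_abs]
        exact pow_le_pow_left₀ (abs_nonneg _) ((abs_im_le_norm _).trans (norm_le_pi_norm _ a)) 2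
      refine h3.trans ?_
      rw [le_inv_mul_iff₀ hc]
      exact (hp x hx).le
  have hq : ∀ (u θ : ℝ), 0 ≤ u → 0 ≤ θ → u * ‖(jm σ (fderiv ℂ w 0) (fderiv ℂ ℓ 0)).det‖ ≤
      √θ * ((Fintype.card (Option A)).factorial * (36 / δ * N * (48 / δ * √c⁻¹ * √N) ^ Fintype.card A)) →
      u ^ 2 * ‖(jm σ (fderiv ℂ w 0) (fderiv ℂ ℓ 0)).det ^ 2 / (w 0 + I) ^ (Fintype.card A + 2)‖ ≤
        θ * ((Fintype.card (Option A)).factorial * (36 / δ * (48 / δ * √c⁻¹) ^ Fintype.card A)) ^ 2 := by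
    intro u θ hu hθ h
    have h2 := pow_le_pow_left₀ (by positivity) h 2
    rw [norm_div, norm_pow, norm_pow, ← hN, ← mul_div_assoc, div_le_iff₀ (by positivity), ← mul_pow]
    refine h2.trans (le_of_eq ?_)
    have h3 : (√N ^ Fintype.card A) ^ 2 = N ^ Fintype.card A := by
      rw [← pow_mul, mul_comm, pow_mul, Real.sq_sqrt hN0.le]
    rw [mul_pow (√θ), Real.sq_sqrt hθ, mul_pow (48 / δ * √c⁻¹), pow_add N, ← h3]
    ring
  refine ⟨?_, fun φ ε a₀ hε hφ => ?_⟩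
  · have := hq 1 1 zero_le_one zero_le_one (by
      have := det_bound (jm σ (fderiv ℂ w 0) (fderiv ℂ ℓ 0))
        (fun i => Option.elim i (36 / δ * N) fun _ => 48 / δ * √c⁻¹ * √N) fun i j => by
          cases i with
          | none => exact h0 j
          | some a => exact h1 a j
      simpa [Fintype.prod_option] using this)
    simpa using this
  · refine hq _ _ (norm_nonneg _) (by positivity)
      (det_bound2 _ (fun a => φ (Pi.single a 1)) a₀ h0 h1 fun j => ?_)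
    have h2 := fib_est hδ hε hw hℓ hp' φ hφ (Pi.single (σ j) 1)
    rw [Pi.norm_single, norm_one, mul_one] at h2
    have h3 : ∑ a, φ (Pi.single a 1) * jm σ (fderiv ℂ w 0) (fderiv ℂ ℓ 0) (some a) j =
        φ (fderiv ℂ ℓ 0 (Pi.single (σ j) 1)) := by
      conv_rhs => rw [pi_eq_sum_univ' (fderiv ℂ ℓ 0 (Pi.single (σ j) 1)), map_sum]
      refine Finset.sum_congr rfl fun a _ => ?_
      rw [map_smul, smul_eq_mul, mul_comm]
      rfl
    rw [h3]
    refine h2.trans (le_of_eq ?_)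
    rw [Real.sqrt_mul hε, Real.sqrt_inv]
    have := (Real.sqrt_pos.2 hc).ne'
    rw [← hN]
    field_simp

variable {D : Type} [NormedAddCommGroup D] [NormedSpace ℂ D] [NormedSpace ℝ D] [IsScalarTower ℝ ℂ D]
  [FiniteDimensional ℂ D]

theorem fderiv_fib {F G : Type} [NormedAddCommGroup F] [NormedSpace ℂ F] [NormedAddCommGroup G] [NormedSpace ℂ G]
    {W : D × F → G} {τ : D} {x : F} (h : DifferentiableAt ℂ W (τ, x)) :
    HasFDerivAt (fun x => W (τ, x)) ((fderiv ℂ W (τ, x)).comp (ContinuousLinearMap.inr ℂ D F)) x :=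
  h.hasFDerivAt.comp x (hasFDerivAt_prodMk_right τ x)

/-- The analytic core. -/
theorem core (hk : k = Fintype.card A + 1) {r : D → ℝ} {t₀ : D} (hr : AnalyticAt ℝ r t₀) (h0 : r t₀ = 0)
    (hd : fderiv ℝ r t₀ ≠ 0) {δ c : ℝ} (hδ : 0 < δ) (hc : 0 < c) {W : D × (Fin k → ℂ) → ℂ}
    {L : D × (Fin k → ℂ) → (A → ℂ)}
    (H1 : ∀ᶠ τ in 𝓝 t₀, 0 < r τ → (∀ x ∈ ball (0 : Fin k → ℂ) δ, AnalyticAt ℂ W (τ, x) ∧ AnalyticAt ℂ L (τ, x) ∧
      c * ‖L (τ, x)‖ ^ 2 < (W (τ, x)).im) ∧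
      ∀ e, fderiv ℂ (fun x => W (τ, x)) 0 e = 0 → fderiv ℂ (fun x => L (τ, x)) 0 e = 0 → e = 0)
    (H2 : ∀ᶠ t in 𝓝 t₀, r t = 0 → ∃ φ : (A → ℂ) →L[ℂ] ℂ, φ ≠ 0 ∧ ∃ ε : D → ℝ, Tendsto ε (𝓝 t) (𝓝 0) ∧
      ∀ᶠ τ in 𝓝 t, 0 < r τ → 0 ≤ ε τ ∧ ∀ x ∈ ball (0 : Fin k → ℂ) δ, (φ (L (τ, x))).im ^ 2 ≤ ε τ * (W (τ, x)).im) :
    False := by
  obtain ⟨σ⟩ : Nonempty (Option A ≃ Fin k) := ⟨Fintype.equivFinOfCardEq (by simp [hk])⟩
  obtain ⟨K, hK, hest⟩ := jm_est σ hδ hc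
  set f : D → ℂ := fun τ => (jm σ (fderiv ℂ (fun x => W (τ, x)) 0) (fderiv ℂ (fun x => L (τ, x)) 0)).det ^ 2 /
    (W (τ, 0) + I) ^ (Fintype.card A + 2) with hf
  have hdiff : ∀ τ, (∀ x ∈ ball (0 : Fin k → ℂ) δ, AnalyticAt ℂ W (τ, x) ∧ AnalyticAt ℂ L (τ, x) ∧
      c * ‖L (τ, x)‖ ^ 2 < (W (τ, x)).im) → DifferentiableOn ℂ (fun x => W (τ, x)) (ball 0 δ) ∧
      DifferentiableOn ℂ (fun x => L (τ, x)) (ball 0 δ) ∧ W (τ, 0) + I ≠ 0 := fun τ h => by
    refine ⟨fun x hx => (fderiv_fib (h x hx).1.differentiableAt).differentiableAt.differentiableWithinAt,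
      fun x hx => (fderiv_fib (h x hx).2.1.differentiableAt).differentiableAt.differentiableWithinAt, fun h' => ?_⟩
    have h1 := congrArg Complex.im h'
    have h2 : 0 < (W (τ, 0)).im := lt_of_le_of_lt (by positivity) (h 0 (mem_ball_self hδ)).2.2
    simp at h1
    linarith
  have key := bdry_unique (f := f) (M := K) hr h0 hd ?_ ?_
  · obtain ⟨τ, hτ, h1, h2⟩ := ((plus_side h0 hd).and_eventually (key.and H1)).exists
    have h3 := h1 hτ
    obtain ⟨h4, h5⟩ := h2 hτ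
    rw [hf, div_eq_zero_iff] at h3
    rcases h3 with h3 | h3
    · exact jm_ne σ _ _ h5 (pow_eq_zero_iff two_ne_zero |>.1 h3)
    · exact (hdiff τ h4).2.2 (pow_eq_zero_iff (by omega) |>.1 h3)
  · filter_upwards [H1] with τ h1 hτ
    obtain ⟨h4, -⟩ := h1 hτ
    obtain ⟨d1, d2, d3⟩ := hdiff τ h4
    refine ⟨?_, (hest _ _ d1 d2 fun x hx => (h4 x hx).2.2).1⟩
    have hi : AnalyticAt ℂ (fun τ : D => (τ, (0 : Fin k → ℂ))) τ := analyticAt_id.prod analyticAt_const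
    obtain ⟨a1, a2, -⟩ := h4 0 (mem_ball_self hδ)
    have gen : ∀ {G : Type} [NormedAddCommGroup G] [NormedSpace ℂ G] [CompleteSpace G] {W : D × (Fin k → ℂ) → G},
        AnalyticAt ℂ W (τ, 0) → ∀ e, AnalyticAt ℂ (fun τ => fderiv ℂ (fun x => W (τ, x)) 0 e) τ := by
      intro G _ _ _ W hW e
      have h1 : AnalyticAt ℂ (fun τ : D => fderiv ℂ W (τ, 0) (0, e)) τ :=
        ((ContinuousLinearMap.apply ℂ G ((0 : D), e)).analyticAt _).comp (AnalyticAt.comp (g := fderiv ℂ W) hW.fderiv hi)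
      refine h1.congr ?_
      filter_upwards [hi.continuousAt.eventually hW.eventually_analyticAt] with τ' h'
      rw [(fderiv_fib h'.differentiableAt).fderiv]
      rfl
    refine ((an_det fun i j => ?_).pow 2).div (((AnalyticAt.comp (g := W) (f := fun τ : D => (τ, (0 : Fin k → ℂ))) a1 hi).add analyticAt_const).pow _)
      (pow_ne_zero _ d3)
    cases i with
    | none => exact gen a1 _
    | some a => exact ((ContinuousLinearMap.proj a : (A → ℂ) →L[ℂ] ℂ).analyticAt _).comp (gen a2 _)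
  · filter_upwards [H1.eventually_nhds, H2] with t h1 h2 ht
    obtain ⟨φ, hφ, ε, hε, h3⟩ := h2 ht
    obtain ⟨a₀, ha⟩ : ∃ a₀, φ (Pi.single a₀ 1) ≠ 0 := by
      by_contra hh
      push Not at hh
      refine hφ (ContinuousLinearMap.ext fun v => ?_)
      rw [pi_eq_sum_univ' v, map_sum]
      simp [hh]
    have hp : 0 < ‖φ (Pi.single a₀ 1)‖ ^ 2 := by positivity
    refine squeeze_zero_norm' (a := fun τ => ε τ * c * K / ‖φ (Pi.single a₀ 1)‖ ^ 2) ?_ ?_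
    · filter_upwards [nhdsWithin_le_nhds h1, nhdsWithin_le_nhds h3, self_mem_nhdsWithin] with τ g1 g3 hτ
      obtain ⟨h4, -⟩ := g1 hτ
      obtain ⟨d1, d2, -⟩ := hdiff τ h4
      rw [le_div_iff₀' hp]
      exact (hest _ _ d1 d2 fun x hx => (h4 x hx).2.2).2 φ _ a₀ (g3 hτ).1 (g3 hτ).2
    · have := (((hε.mul_const c).mul_const K).div_const (‖φ (Pi.single a₀ 1)‖ ^ 2)).mono_left
        (nhdsWithin_le_nhds (s := {x' | 0 < r x'}))
      simpa using this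

end Crest.Agent.R264.Dx
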