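import Crest.Agent.R264.Dx.Core

/-! Row 264, Model 4: from the CR data to the analytic core. -/

set_option autoImplicit false
set_option linter.unusedSectionVars false
open Set Filter Topology Metric Complex

namespace Crest.Agent.R264.Dx

variable {A : Type} [Fintype A] [DecidableEq A] {k : ℕ}
  {D : Type} [NormedAddCommGroup D] [NormedSpace ℂ D] [NormedSpace ℝ D] [IsScalarTower ℝ ℂ D] [FiniteDimensional ℂ D]

theorem an_clm {F : Type} [NormedAddCommGroup F] [NormedSpace ℂ F] {M : D → (A → ℂ) →L[ℂ] F} {t : D}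
    (h : ∀ v, AnalyticAt ℂ (fun τ => M τ v) t) : AnalyticAt ℂ M t := by
  have : M = fun τ => ∑ a, ContinuousLinearMap.smulRightL ℂ (A → ℂ) F (ContinuousLinearMap.proj a)
      (M τ (Pi.single a 1)) := by
    funext τ
    refine ContinuousLinearMap.ext fun v => ?_
    conv_lhs => rw [pi_eq_sum_univ' v, map_sum]
    simp
  rw [this]
  exact Finset.analyticAt_fun_sum _ fun a _ => (ContinuousLinearMap.analyticAt _ _).comp (h _)

theorem an_app {P V F : Type} [NormedAddCommGroup P] [NormedSpace ℂ P] [NormedAddCommGroup V] [NormedSpace ℂ V]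
    [NormedAddCommGroup F] [NormedSpace ℂ F] {M : P → V →L[ℂ] F} {v : P → V} {p : P} (hM : AnalyticAt ℂ M p)
    (hv : AnalyticAt ℂ v p) : AnalyticAt ℂ (fun q => M q (v q)) p :=
  AnalyticAt.comp (g := fun x : (V →L[ℂ] F) × V => ContinuousLinearMap.id ℂ (V →L[ℂ] F) x.1 x.2)
    (f := fun q => (M q, v q)) ((ContinuousLinearMap.id ℂ (V →L[ℂ] F)).analyticAt_bilinear _) (hM.prod hv)

theorem an_inv {M : D → (A → ℂ) →L[ℂ] (A → ℂ)} {t : D} (h : AnalyticAt ℂ M t) (hi : (M t).IsInvertible) :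
    AnalyticAt ℂ (fun τ => (M τ).inverse) t := by
  obtain ⟨e, he⟩ := hi
  have := (contDiffAt_map_inverse (n := ⊤) e).analyticAt
  rw [he] at this
  exact this.comp h

theorem det_ne_iff {M : (A → ℂ) →L[ℂ] (A → ℂ)} :
    (LinearMap.toMatrix' (M : (A → ℂ) →ₗ[ℂ] (A → ℂ))).det ≠ 0 ↔ ∀ v, M v = 0 → v = 0 := by
  rw [Ne, ← Matrix.exists_mulVec_eq_zero_iff]
  simp only [LinearMap.toMatrix'_mulVec, ContinuousLinearMap.coe_coe]
  push Not
  exact ⟨fun h v hv => by_contra fun h0 => h v h0 hv, fun h v h0 hv => h0 (h v hv)⟩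

theorem an_detM {M : D → (A → ℂ) →L[ℂ] (A → ℂ)} {t : D} (h : AnalyticAt ℂ M t) :
    AnalyticAt ℂ (fun τ => (LinearMap.toMatrix' (M τ : (A → ℂ) →ₗ[ℂ] (A → ℂ))).det) t :=
  an_det fun i j => by
    simp only [LinearMap.toMatrix'_apply, ContinuousLinearMap.coe_coe]
    exact ((ContinuousLinearMap.proj i : (A → ℂ) →L[ℂ] ℂ).analyticAt _).comp (an_app h analyticAt_const)

theorem inv_near {M : D → (A → ℂ) →L[ℂ] (A → ℂ)} {t : D} (h : AnalyticAt ℂ M t) (hi : (M t).IsInvertible) :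
    ∀ᶠ τ in 𝓝 t, (M τ).IsInvertible :=
  ((an_detM h).continuousAt.eventually_ne (det_ne_iff.2 ((injective_iff_map_eq_zero _).1 hi.injective))).mono
    fun _ h => inv_of_inj (det_ne_iff.1 h)

variable {κ : (A → ℂ) →L[ℝ] (A → ℂ) →L[ℝ] ℝ} {ξ : D → (A → ℂ) →L[ℝ] (A → ℂ)}
  {η : D → (A → ℂ) →L[ℝ] (A → ℂ) →L[ℝ] ℂ} {r : D → ℝ} {t₀ : D} {δ : ℝ} {w : D × (Fin k → ℂ) → ℂ}
  {u : D × (Fin k → ℂ) → (A → ℂ)}

/-- what is known on the fibre over a point of the `+` side -/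
structure Plus (κ : (A → ℂ) →L[ℝ] (A → ℂ) →L[ℝ] ℝ) (ξ : (A → ℂ) →L[ℝ] (A → ℂ))
    (η : (A → ℂ) →L[ℝ] (A → ℂ) →L[ℝ] ℂ) (δ : ℝ) (w : D × (Fin k → ℂ) → ℂ) (u : D × (Fin k → ℂ) → (A → ℂ))
    (τ : D) : Prop where
  inv : ξ.IsInvertible
  pos : ∀ a a', ξ a' = I • ξ a → a ≠ 0 → κ a a' < 0
  aw : ∀ x ∈ ball (0 : Fin k → ℂ) δ, AnalyticAt ℂ w (τ, x)
  au : ∀ x ∈ ball (0 : Fin k → ℂ) δ, AnalyticAt ℂ u (τ, x)
  lt : ∀ x ∈ ball (0 : Fin k → ℂ) δ, (η (ξ.inverse (u (τ, x))) (ξ.inverse (u (τ, x)))).im < (w (τ, x)).im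
  inj : ∀ e, fderiv ℂ (fun x => w (τ, x)) 0 e = 0 → fderiv ℂ (fun x => u (τ, x)) 0 e = 0 → e = 0

theorem mid2 (hk : k = Fintype.card A + 1) (hr : AnalyticAt ℝ r t₀) (h0 : r t₀ = 0) (hd : fderiv ℝ r t₀ ≠ 0)
    (hδ : 0 < δ) {α : (A → ℂ) →L[ℝ] (A → ℂ)} {c : ℝ} (ref : Ref κ α c) {M : D → (A → ℂ) →L[ℂ] (A → ℂ)}
    {S : D → (A → ℂ) →L[ℂ] (A → ℂ) →L[ℂ] ℂ} (hM : ∀ τ v, M τ v = ξ τ (α v) - I • ξ τ (α (I • v)))
    (hS : ∀ τ v, S τ v v = η τ (α v) (α v) - η τ (α (I • v)) (α (I • v)) -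
      I * (η τ (α v) (α (I • v)) + η τ (α (I • v)) (α v)))
    (han : ∀ᶠ τ in 𝓝 t₀, (∀ a, AnalyticAt ℂ (fun τ => ξ τ a) τ) ∧ AnalyticAt ℂ M τ ∧ AnalyticAt ℂ S τ ∧
      Pt κ (ξ τ) (η τ))
    (hdeg : ∀ᶠ τ in 𝓝 t₀, r τ = 0 → ¬ (ξ τ).IsInvertible)
    (hp : ∀ᶠ τ in 𝓝 t₀, 0 < r τ → Plus κ (ξ τ) (η τ) δ w u τ) (hi : (M t₀).IsInvertible) : False := by
  have hinv := inv_near han.self_of_nhds.2.1 hi
  set L : D × (Fin k → ℂ) → (A → ℂ) := fun p => (M p.1).inverse (u p) with hL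
  set W : D × (Fin k → ℂ) → ℂ := fun p => w p - S p.1 (L p) (L p) with hW
  have key : ∀ᶠ τ in 𝓝 t₀, 0 < r τ → ∀ x ∈ ball (0 : Fin k → ℂ) δ,
      ξ τ (α (L (τ, x))) - I • ξ τ (α (I • L (τ, x))) = ξ τ ((ξ τ).inverse (u (τ, x))) ∧
      κ (α (I • L (τ, x))) ((ξ τ).inverse (u (τ, x))) < (W (τ, x)).im := by
    filter_upwards [hinv, han, hp] with τ g1 g2 g3 hτ x hx
    have e : ξ τ (α (L (τ, x))) - I • ξ τ (α (I • L (τ, x))) = ξ τ ((ξ τ).inverse (u (τ, x))) := by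
      rw [← hM, (g3 hτ).inv.self_apply_inverse, hL, g1.self_apply_inverse]
    refine ⟨e, ?_⟩
    rw [← g2.2.2.2.q_eq ref.skew e, ← hS, hW, sub_im]
    exact sub_lt_sub_right ((g3 hτ).lt x hx) _
  refine core (W := W) (L := L) hk hr h0 hd hδ ref.pos ?_ ?_
  · filter_upwards [hinv, han, hp, key] with τ g1 g2 g3 g4 hτ
    have P := g3 hτ
    have aL : ∀ x ∈ ball (0 : Fin k → ℂ) δ, AnalyticAt ℂ L (τ, x) := fun x hx =>
      an_app (AnalyticAt.comp (g := fun τ => (M τ).inverse) (f := Prod.fst) (an_inv g2.2.1 g1) analyticAt_fst)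
        (P.au x hx)
    have aW : ∀ x ∈ ball (0 : Fin k → ℂ) δ, AnalyticAt ℂ W (τ, x) := fun x hx =>
      (P.aw x hx).sub (an_app (an_app (AnalyticAt.comp (g := S) (f := Prod.fst) g2.2.2.1 analyticAt_fst) (aL x hx))
        (aL x hx))
    refine ⟨fun x hx => ⟨aW x hx, aL x hx,
      (ref.q_ge (sp_of_pos P.pos) (g4 hτ x hx).1).trans_lt (g4 hτ x hx).2⟩, fun e e1 e2 => P.inj e ?_ ?_⟩
    · have dL := (fderiv_fib (aL 0 (mem_ball_self hδ)).differentiableAt).differentiableAt.hasFDerivAt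
      have dW := (fderiv_fib (aW 0 (mem_ball_self hδ)).differentiableAt).differentiableAt.hasFDerivAt
      have := dW.add (((S τ).hasFDerivAt.comp 0 dL).clm_apply dL)
      have h2 : (fun x => w (τ, x)) = (fun x => W (τ, x)) + fun y => (⇑(S τ) ∘ fun x => L (τ, x)) y (L (τ, y)) := by
        funext x
        simp [hW]
      rw [h2, this.fderiv]
      simp [e1, e2]
    · have dL := (fderiv_fib (aL 0 (mem_ball_self hδ)).differentiableAt).differentiableAt.hasFDerivAt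
      have := (M τ).hasFDerivAt.comp 0 dL
      have h2 : (fun x => u (τ, x)) = ⇑(M τ) ∘ fun x => L (τ, x) := by
        funext x
        simp [hL, g1.self_apply_inverse]
      rw [h2, this.fderiv]
      simp [e2]
  · filter_upwards [hinv.eventually_nhds, han.eventually_nhds, hp.eventually_nhds, key.eventually_nhds, hdeg]
      with t g1 g2 g3 g4 g5 ht
    obtain ⟨b, hb, hb0⟩ := exists_ker (g5 ht)
    obtain ⟨φ, hφ, hφi⟩ := ref.exists_fun hb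
    refine ⟨φ, hφ, fun τ => κ (α (I • (M τ).inverse (ξ τ b))) b, ?_, ?_⟩
    · have h1 := (an_app (an_inv g2.self_of_nhds.2.1 g1.self_of_nhds) (g2.self_of_nhds.1 b)).continuousAt
      have h2 : Continuous fun v : A → ℂ => κ (α (I • v)) b := by fun_prop
      have := (h2.continuousAt.comp h1).tendsto
      simpa [hb0, Function.comp_def] using this
    · filter_upwards [g1, g2, g3, g4] with τ f1 f2 f3 f4 hτ
      have P := f3 hτ
      have e : ξ τ (α ((M τ).inverse (ξ τ b))) - I • ξ τ (α (I • (M τ).inverse (ξ τ b))) = ξ τ b := by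
        rw [← hM, f1.self_apply_inverse]
      have hε := (mul_nonneg ref.pos.le (sq_nonneg _)).trans (ref.q_ge (sp_of_pos P.pos) e)
      refine ⟨hε, fun x hx => ?_⟩
      rw [hφi, neg_sq]
      exact (ref.cs f2.2.2.2 (sp_of_pos P.pos) (f4 hτ x hx).1 e).trans
        (mul_le_mul_of_nonneg_left (f4 hτ x hx).2.le hε)

theorem mid (hk : k = Fintype.card A + 1) (hr : AnalyticAt ℝ r t₀) (h0 : r t₀ = 0) (hd : fderiv ℝ r t₀ ≠ 0)
    (hδ : 0 < δ) (hs : ∀ a, κ a a = 0) (hn : ∀ a, (∀ a', κ a a' = 0) → a = 0)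
    (han : ∀ᶠ τ in 𝓝 t₀, (∀ a, AnalyticAt ℂ (fun τ => ξ τ a) τ) ∧ (∀ a a', AnalyticAt ℂ (fun τ => η τ a a') τ) ∧
      Pt κ (ξ τ) (η τ))
    (hdeg : ∀ᶠ τ in 𝓝 t₀, r τ = 0 → ¬ (ξ τ).IsInvertible)
    (hp : ∀ᶠ τ in 𝓝 t₀, 0 < r τ → Plus κ (ξ τ) (η τ) δ w u τ) : False := by
  obtain ⟨t₁, ht₁, h1, h2⟩ := ((plus_side h0 hd).and_eventually (han.and hp)).exists
  obtain ⟨α, c, ref⟩ := exists_ref h1.2.2 hs hn (h2 ht₁).inv (h2 ht₁).pos
  choose M hM using fun τ => exists_clin (((ξ τ).comp α : (A → ℂ) →L[ℝ] (A → ℂ)) : (A → ℂ) →ₗ[ℝ] (A → ℂ))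
  choose S hS using fun τ => exists_cbil ((η τ).bilinearComp α α)
  simp only [ContinuousLinearMap.coe_coe, ContinuousLinearMap.comp_apply] at hM
  simp only [ContinuousLinearMap.bilinearComp_apply] at hS
  have han' : ∀ᶠ τ in 𝓝 t₀, (∀ a, AnalyticAt ℂ (fun τ => ξ τ a) τ) ∧ AnalyticAt ℂ M τ ∧ AnalyticAt ℂ S τ ∧
      Pt κ (ξ τ) (η τ) := by
    filter_upwards [han] with τ g
    refine ⟨g.1, an_clm fun v => ?_, an_clm fun v => an_clm fun v' => ?_, g.2.2⟩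
    · simp only [hM]
      exact (g.1 _).sub (analyticAt_const.fun_smul (g.1 _))
    · simp only [hS]
      exact ((g.2.1 _ _).sub (g.2.1 _ _)).sub (analyticAt_const.mul ((g.2.1 _ _).add (g.2.1 _ _)))
  have hex : ∃ᶠ τ in 𝓝 t₀, r τ = 0 ∧ (M τ).IsInvertible := by
    intro hh
    have ad := an_detM han'.self_of_nhds.2.1
    have key := bdry_unique (f := fun τ => (LinearMap.toMatrix' (M τ : (A → ℂ) →ₗ[ℂ] (A → ℂ))).det)
      (M := ‖(LinearMap.toMatrix' (M t₀ : (A → ℂ) →ₗ[ℂ] (A → ℂ))).det‖ + 1) hr h0 hd ?_ ?_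
    · obtain ⟨τ, hτ, g1, g2⟩ := ((plus_side h0 hd).and_eventually (key.and hp)).exists
      refine det_ne_iff.2 (fun v hv => ref.inj (sp_of_pos (g2 hτ).pos) ?_) (g1 hτ)
      rw [← hM, hv]
    · filter_upwards [ad.eventually_analyticAt, ad.continuousAt.norm.eventually (gt_mem_nhds (lt_add_one _))]
        with τ g1 g2 _ using ⟨g1, g2.le⟩
    · filter_upwards [ad.eventually_analyticAt, hh] with τ g1 g2 hτ
      have : (LinearMap.toMatrix' (M τ : (A → ℂ) →ₗ[ℂ] (A → ℂ))).det = 0 :=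
        by_contra fun h => g2 ⟨hτ, inv_of_inj (det_ne_iff.1 h)⟩
      rw [← this]
      exact g1.continuousAt.tendsto.mono_left nhdsWithin_le_nhds
  obtain ⟨t, ⟨ht, hi⟩, g1, g2, g3, g4, g5⟩ := (hex.and_eventually (hr.eventually_analyticAt.and
    ((hr.fderiv.continuousAt.eventually_ne hd).and (han'.eventually_nhds.and
      (hdeg.eventually_nhds.and hp.eventually_nhds))))).exists
  exact mid2 hk g1 ht g2 hδ ref hM (fun τ v => hS τ v v) g3 g4 g5 hi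

end Crest.Agent.R264.Dx
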